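import Vale.Agent.P287.R2.H248.Polar

/-!
P287: cyclic cubic fourfolds `f(x_0, …, x_4) + x_5 ^ 3 = 0` containing two planes which are not in
a common hyperplane through the vertex.
-/

namespace Vale.Agent.P287.R2.H389

open MvPolynomial Submodule Module Vale.Agent.P287.R2.H248

/-- The last coordinate vector. -/
noncomputable def e5 : A6 := Pi.single 5 1

/-- The automorphism of order three. -/
noncomputable def rot (w : ℂ) : A6 →ₗ[ℂ] A6 :=
  LinearMap.id + (w - 1) • ((LinearMap.proj 5 : A6 →ₗ[ℂ] ℂ).smulRight e5)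

lemma rot_apply (w : ℂ) (v : A6) : rot w v = v + ((w - 1) * v 5) • e5 := by
  unfold rot
  simp [smul_smul]

lemma rot_cast (w : ℂ) (v : A6) (i : Fin 5) : rot w v i.castSucc = v i.castSucc := by
  rw [rot_apply]
  have : (i.castSucc : Fin 6) ≠ 5 := by
    intro h
    have := congrArg Fin.val h
    simp at this
    omega
  simp [e5, this]

lemma rot_five (w : ℂ) (v : A6) : rot w v 5 = w * v 5 := by
  rw [rot_apply]
  simp [e5]
  ring

/-- The cyclic form. -/
noncomputable def cyclic (f : MvPolynomial (Fin 5) ℂ) : MvPolynomial (Fin 6) ℂ :=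
  rename Fin.castSucc f + X 5 ^ 3

lemma eval_cyclic (f : MvPolynomial (Fin 5) ℂ) (v : A6) :
    eval v (cyclic f) = eval (fun i => v (Fin.castSucc i)) f + v 5 ^ 3 := by
  unfold cyclic
  rw [map_add, eval_rename, map_pow, eval_X]
  rfl

lemma eval_rot (f : MvPolynomial (Fin 5) ℂ) {w : ℂ} (hw : w ^ 3 = 1) (v : A6) :
    eval (rot w v) (cyclic f) = eval v (cyclic f) := by
  rw [eval_cyclic, eval_cyclic]
  simp only [rot_cast, rot_five]
  rw [mul_pow, hw, one_mul]

lemma pderiv_cyclic (f : MvPolynomial (Fin 5) ℂ) (v : A6) :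
    eval v (pderiv 5 (cyclic f)) = 3 * v 5 ^ 2 := by
  unfold cyclic
  have h : pderiv (5 : Fin 6) (rename Fin.castSucc f) = 0 := by
    apply pderiv_eq_zero_of_notMem_vars
    intro h
    have := vars_rename (Fin.castSucc : Fin 5 → Fin 6) f h
    rw [Finset.mem_image] at this
    obtain ⟨i, -, hi⟩ := this
    have := congrArg Fin.val hi
    simp at this
    omega
  rw [map_add, h, zero_add, Derivation.leibniz_pow, pderiv_X_self]
  simp

theorem cyclic_planes (f : MvPolynomial (Fin 5) ℂ) (hF : IsCubicFourfold (cyclic f))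
    {W W' : Submodule ℂ A6} (hW : IsPlaneIn (cyclic f) W) (hW' : IsPlaneIn (cyclic f) W')
    (h : W ⊔ W' ⊔ span ℂ {e5} = ⊤) :
    ∃ P Q, IsPlaneIn (cyclic f) P ∧ IsPlaneIn (cyclic f) Q ∧ Disjoint P Q := by
  by_cases hd : Disjoint W W'
  · exact ⟨W, W', hW, hW', hd⟩
  obtain ⟨w, hw, hw1⟩ : ∃ w : ℂ, w ^ 3 = 1 ∧ w ≠ 1 := by
    have h := Complex.isPrimitiveRoot_exp 3 (by norm_num)
    exact ⟨_, h.pow_eq_one, h.ne_one (by norm_num)⟩
  have hinj : Function.Injective (rot w) := by
    rw [← LinearMap.ker_eq_bot, LinearMap.ker_eq_bot']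
    intro v hv
    have hw0 : w ≠ 0 := by
      rintro rfl
      norm_num at hw
    have h5 : v 5 = 0 := by
      have := rot_five w v
      rw [hv] at this
      have h0 : w * v 5 = 0 := this.symm
      exact (mul_eq_zero.mp h0).resolve_left hw0
    have := rot_apply w v
    rw [hv, h5, mul_zero, zero_smul, add_zero] at this
    exact this.symm
  refine ⟨W, W'.map (rot w), hW, ⟨?_, ?_⟩, ?_⟩
  · rw [← LinearEquiv.finrank_eq (Submodule.equivMapOfInjective (rot w) hinj W')]
    exact hW'.1
  · rintro _ ⟨y, hy, rfl⟩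
    rw [eval_rot f hw]
    exact hW'.2 y hy
  · rw [Submodule.disjoint_def]
    rintro y hy ⟨y', hy', hyy⟩
    have he : e5 ∉ W ⊔ W' := by
      intro he
      apply hd
      have htop : W ⊔ W' = ⊤ := by
        rw [← h, eq_comm, sup_eq_left, span_singleton_le_iff_mem]
        exact he
      have h1 := Submodule.finrank_sup_add_finrank_inf_eq W W'
      rw [htop, finrank_top, hW.1, hW'.1, finrank_fin_fun] at h1
      rw [disjoint_iff, ← finrank_eq_zero (R := ℂ)]
      omega
    have hy5 : y' 5 = 0 := by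
      by_contra h0
      apply he
      rw [rot_apply] at hyy
      have hc : (w - 1) * y' 5 ≠ 0 := mul_ne_zero (sub_ne_zero.mpr hw1) h0
      have h2 : ((w - 1) * y' 5) • e5 ∈ W ⊔ W' := by
        have : ((w - 1) * y' 5) • e5 = y - y' := by rw [← hyy]; abel
        rw [this]
        exact Submodule.sub_mem _ (mem_sup_left hy) (mem_sup_right hy')
      exact (Submodule.smul_mem_iff _ hc).mp h2
    have hyy' : y = y' := by
      rw [← hyy, rot_apply, hy5, mul_zero, zero_smul, add_zero]
    subst hyy'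
    apply pol_smooth hF
    have hi := (pol_iso hF.1).mpr hW.2
    have hi' := (pol_iso hF.1).mpr hW'.2
    have hle : W ⊔ W' ⊔ span ℂ {e5} ≤ LinearMap.ker ((pol (cyclic f)).T y y) := by
      refine sup_le (sup_le ?_ ?_) ?_
      · intro v hv
        exact LinearMap.mem_ker.mpr (hi.two hy hv)
      · intro v hv
        exact LinearMap.mem_ker.mpr (hi'.two hy' hv)
      · rw [span_singleton_le_iff_mem, LinearMap.mem_ker, pol_two hF.1]
        rw [Finset.sum_eq_single (5 : Fin 6)]
        · rw [pderiv_cyclic, hy5]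
          simp
        · intro j _ hj
          simp [e5, hj]
        · simp
    intro v
    have : v ∈ W ⊔ W' ⊔ span ℂ {e5} := by rw [h]; trivial
    exact LinearMap.mem_ker.mp (hle this)

end Vale.Agent.P287.R2.H389
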