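import Vale.Agent.P287.R2.H248.Polar

/-!
P287: cyclic cubic fourfolds, coordinate-free form: `C^6 = A ⊕ B` with `dim A = 1` and
`F(a + b) = F(a) + F(b)`, and two planes which are not in a common hyperplane through `A`.
-/

namespace Vale.Agent.P287.R2.H389

open MvPolynomial Submodule Module Vale.Agent.P287.R2.H248

lemma eval_smul_cube {F : MvPolynomial (Fin 6) ℂ} (hF : F.IsHomogeneous 3) (c : ℂ) (v : A6) :
    eval (c • v) F = c ^ 3 * eval v F := by
  rw [← pol_three hF, ← pol_three hF]
  simp only [map_smul, LinearMap.smul_apply, smul_eq_mul]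
  ring

lemma pol_of_sum {F : MvPolynomial (Fin 6) ℂ} (hF : F.IsHomogeneous 3) {A B : Submodule ℂ A6}
    (hsum : ∀ a ∈ A, ∀ b ∈ B, eval (a + b) F = eval a F + eval b F) {a b : A6} (ha : a ∈ A)
    (hb : b ∈ B) : (pol F).T b b a = 0 := by
  have h1 := hsum a ha b hb
  have h2 := hsum a ha (-b) (B.neg_mem hb)
  have h3 := (pol F).cube_add 1 1 a b
  have h4 := (pol F).cube_add 1 (-1) a b
  have h5 := (pol F).cube_add 0 (-1) a b
  simp only [one_smul, neg_smul, zero_smul, zero_add] at h3 h4 h5
  rw [← pol_three hF, ← pol_three hF, ← pol_three hF] at h1 h2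
  rw [← (pol F).cyc a b b]
  linear_combination (1 / 6 : ℂ) * (h1 - h3 + h2 - h4 + h5)

/-- Two planes of a cyclic cubic fourfold which are not in a common hyperplane through the vertex
give two disjoint planes. -/
theorem cyclic_sum {F : MvPolynomial (Fin 6) ℂ} (hF : IsCubicFourfold F) {A B : Submodule ℂ A6}
    (hAB : IsCompl A B) (hA : finrank ℂ A = 1)
    (hsum : ∀ a ∈ A, ∀ b ∈ B, eval (a + b) F = eval a F + eval b F)
    {W W' : Submodule ℂ A6} (hW : IsPlaneIn F W) (hW' : IsPlaneIn F W')
    (h : W ⊔ W' ⊔ A = ⊤) :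
    ∃ P Q, IsPlaneIn F P ∧ IsPlaneIn F Q ∧ Disjoint P Q := by
  by_cases hd : Disjoint W W'
  · exact ⟨W, W', hW, hW', hd⟩
  obtain ⟨w, hw, hw1⟩ : ∃ w : ℂ, w ^ 3 = 1 ∧ w ≠ 1 := by
    have h := Complex.isPrimitiveRoot_exp 3 (by norm_num)
    exact ⟨_, h.pow_eq_one, h.ne_one (by norm_num)⟩
  have hw0 : w ≠ 0 := by
    rintro rfl
    norm_num at hw
  obtain ⟨p, hpA, hpB, hpa⟩ : ∃ p : A6 →ₗ[ℂ] A6, (∀ v, p v ∈ A) ∧ (∀ v, v - p v ∈ B) ∧
      ∀ v, p (p v) = p v := by
    set q := A.projectionOnto B hAB with hq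
    have hleft : ∀ a : A, q a = a := fun a => Submodule.projectionOnto_apply_left hAB a
    refine ⟨A.subtype ∘ₗ q, fun v => (q v).2, fun v => ?_, fun v => ?_⟩
    · have hk : v - q v ∈ LinearMap.ker q := by
        rw [LinearMap.mem_ker, map_sub, hleft, sub_self]
      rw [hq, Submodule.ker_projectionOnto] at hk
      exact hk
    · exact congrArg Subtype.val (hleft (q v))
  set r : A6 →ₗ[ℂ] A6 := LinearMap.id + (w - 1) • p with hr
  have hrv : ∀ v, r v = v + (w - 1) • p v := fun v => rfl
  have hinj : Function.Injective r := by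
    rw [← LinearMap.ker_eq_bot, LinearMap.ker_eq_bot']
    intro v hv
    have h1 : p (r v) = w • p v := by
      rw [hrv, map_add, map_smul, hpa]
      module
    rw [hv, map_zero] at h1
    have h2 : p v = 0 := (smul_eq_zero.mp h1.symm).resolve_left hw0
    rw [hrv, h2, smul_zero, add_zero] at hv
    exact hv
  have heval : ∀ v, eval (r v) F = eval v F := by
    intro v
    have h1 : r v = w • p v + (v - p v) := by
      rw [hrv]
      module
    have h2 : v = p v + (v - p v) := by abel
    rw [h1, hsum _ (A.smul_mem w (hpA v)) _ (hpB v), eval_smul_cube hF.1, hw, one_mul,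
      ← hsum _ (hpA v) _ (hpB v), ← h2]
  refine ⟨W, W'.map r, hW, ⟨?_, ?_⟩, ?_⟩
  · rw [← LinearEquiv.finrank_eq (Submodule.equivMapOfInjective r hinj W')]
    exact hW'.1
  · rintro _ ⟨y, hy, rfl⟩
    rw [heval]
    exact hW'.2 y hy
  · rw [Submodule.disjoint_def]
    rintro y hy ⟨y', hy', hyy⟩
    have hp0 : p y' = 0 := by
      by_contra h0
      apply hd
      have hc : w - 1 ≠ 0 := sub_ne_zero.mpr hw1
      have h2 : p y' ∈ W ⊔ W' := by
        have h3 : (w - 1) • p y' ∈ W ⊔ W' := by
          have : (w - 1) • p y' = y - y' := by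
            rw [← hyy, hrv]
            abel
          rw [this]
          exact Submodule.sub_mem _ (mem_sup_left hy) (mem_sup_right hy')
        exact (Submodule.smul_mem_iff _ hc).mp h3
      have hAle : A ≤ W ⊔ W' := by
        intro a ha
        have h4 : (⟨p y', hpA y'⟩ : A) ≠ 0 := fun h => h0 (congrArg Subtype.val h)
        obtain ⟨c, hc⟩ := (finrank_eq_one_iff_of_nonzero' _ h4).mp hA ⟨a, ha⟩
        have h5 : c • p y' = a := congrArg Subtype.val hc
        rw [← h5]
        exact Submodule.smul_mem _ c h2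
      have htop : W ⊔ W' = ⊤ := by
        rw [← h, eq_comm, sup_eq_left]
        exact hAle
      have h1 := Submodule.finrank_sup_add_finrank_inf_eq W W'
      rw [htop, finrank_top, hW.1, hW'.1, finrank_fin_fun] at h1
      rw [disjoint_iff, ← finrank_eq_zero (R := ℂ)]
      omega
    have hyy' : y = y' := by
      rw [← hyy, hrv, hp0, smul_zero, add_zero]
    subst hyy'
    have hyB : y ∈ B := by
      have := hpB y
      rwa [hp0, sub_zero] at this
    apply pol_smooth hF
    have hi := (pol_iso hF.1).mpr hW.2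
    have hi' := (pol_iso hF.1).mpr hW'.2
    have hle : W ⊔ W' ⊔ A ≤ LinearMap.ker ((pol F).T y y) := by
      refine sup_le (sup_le ?_ ?_) ?_
      · intro v hv
        exact LinearMap.mem_ker.mpr (hi.two hy hv)
      · intro v hv
        exact LinearMap.mem_ker.mpr (hi'.two hy' hv)
      · intro v hv
        exact LinearMap.mem_ker.mpr (pol_of_sum hF.1 hsum hv hyB)
    intro v
    have : v ∈ W ⊔ W' ⊔ A := by rw [h]; trivial
    exact LinearMap.mem_ker.mp (hle this)

end Vale.Agent.P287.R2.H389
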