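import Vale.Agent.P287.R2.H992.Good

/-!
P287 (helper389): four good directions in one plane of directions give an Eckardt point.
-/

namespace Vale.Agent.P287.R2.H389

open Module Submodule
open Vale.Agent.P287.R2.H248
open Vale.Agent.P287.R2.H622
open Vale.Agent.P287.R2.H992

variable {V : Type*} [AddCommGroup V] [Module ℂ V] [FiniteDimensional ℂ V] {S : Tri V}

/-- The trace on `P` of a second plane in the span of `P` and `w`. -/
lemma good_trace {P : Submodule ℂ V} (hP : Pl S P) {w : V} (hw : w ∉ P) (h : Good S P w) :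
    ∃ (L : Submodule ℂ V) (p : V) (c : ℂ), L ≤ P ∧ finrank ℂ L = 2 ∧ p ∈ P ∧ c ≠ 0 ∧
      (∀ x ∈ L, ∀ y ∈ L, S.T x y w = 0) ∧ ∀ x ∈ L, S.T x (p + c • w) (p + c • w) = 0 := by
  obtain ⟨A, hA, hAle, hAP⟩ := h
  have h1 : ¬ A ≤ P := fun h => hAP (Submodule.eq_of_le_of_finrank_eq h (by rw [hA.1, hP.1]))
  obtain ⟨a, ha, haP⟩ := Set.not_subset.mp h1
  obtain ⟨p, hp, z, hz, rfl⟩ := mem_sup.mp (hAle ha)
  obtain ⟨c, rfl⟩ := mem_span_singleton.mp hz
  have hc : c ≠ 0 := by
    rintro rfl
    apply haP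
    change p + (0 : ℂ) • w ∈ P
    rw [zero_smul, add_zero]
    exact hp
  have h2 : finrank ℂ ↥(A ⊔ P) = 4 := by
    apply le_antisymm
    · have h3 : A ⊔ P ≤ P ⊔ span ℂ {w} := sup_le hAle le_sup_left
      have h4 := Submodule.finrank_mono h3
      rwa [finrank_sup_single hw, hP.1] at h4
    · have h3 : P ⊔ span ℂ {p + c • w} ≤ A ⊔ P := by
        refine sup_le le_sup_right ?_
        rw [span_singleton_le_iff_mem]
        exact mem_sup_left ha
      have h4 := Submodule.finrank_mono h3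
      rwa [finrank_sup_single haP, hP.1] at h4
  have h3 := Submodule.finrank_sup_add_finrank_inf_eq A P
  rw [h2, hA.1, hP.1] at h3
  refine ⟨A ⊓ P, p, c, inf_le_right, by omega, hp, hc, ?_, ?_⟩
  · rintro x ⟨hxA, hxP⟩ y ⟨hyA, hyP⟩
    have h4 := hA.2.three hxA hyA ha
    rw [map_add, map_smul, hP.2.three hxP hyP hp, zero_add, smul_eq_mul] at h4
    exact (mul_eq_zero.mp h4).resolve_left hc
  · rintro x ⟨hxA, -⟩
    exact hA.2.three hxA ha ha

/-- (K) The conic of a good direction has a kernel vector. -/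
lemma good_kernel {P : Submodule ℂ V} (hP : Pl S P) {w : V} (hw : w ∉ P) (h : Good S P w) :
    ∃ n ∈ P, n ≠ 0 ∧ ∀ y ∈ P, S.T n y w = 0 := by
  obtain ⟨L, p, c, hLP, hL, hp, hc, hLL, -⟩ := good_trace hP hw h
  have h1 : ¬ P ≤ L := by
    intro h
    have := Submodule.finrank_mono h
    rw [hP.1, hL] at this
    omega
  obtain ⟨x, hxP, hxL⟩ := Set.not_subset.mp h1
  have h2 : L ⊔ span ℂ {x} = P := by
    apply Submodule.eq_of_le_of_finrank_eq
    · refine sup_le hLP ?_
      rw [span_singleton_le_iff_mem]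
      exact hxP
    · rw [finrank_sup_single hxL, hL, hP.1]
  have h3 : ∃ n ∈ L, n ≠ 0 ∧ S.T x n w = 0 := by
    obtain ⟨k, hk, hk0⟩ : ∃ k ∈ L, k ≠ 0 := by
      by_contra hcon
      push Not at hcon
      rw [(Submodule.eq_bot_iff L).mpr hcon, finrank_bot] at hL
      omega
    obtain ⟨e, he, hek, -⟩ := exists_pair hL hk hk0
    by_cases hx : S.T x k w = 0
    · exact ⟨k, hk, hk0, hx⟩
    · refine ⟨S.T x e w • k - S.T x k w • e, L.sub_mem (L.smul_mem _ hk) (L.smul_mem _ he), ?_, ?_⟩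
      · intro h0
        apply hek
        have h4 : S.T x k w • e = S.T x e w • k := (sub_eq_zero.mp h0).symm
        have h5 : S.T x k w • e ∈ span ℂ {k} := by
          rw [h4]
          exact Submodule.smul_mem _ _ (mem_span_singleton_self k)
        exact ((span ℂ {k}).smul_mem_iff hx).mp h5
      · simp only [map_sub, map_smul, LinearMap.sub_apply, LinearMap.smul_apply, smul_eq_mul]
        ring
  obtain ⟨n, hn, hn0, hxn⟩ := h3
  refine ⟨n, hLP hn, hn0, fun y hy => ?_⟩
  rw [← h2] at hy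
  obtain ⟨u, hu, z, hz, rfl⟩ := mem_sup.mp hy
  obtain ⟨t, rfl⟩ := mem_span_singleton.mp hz
  rw [map_add, LinearMap.add_apply, hLL n hn u hu, map_smul, LinearMap.smul_apply, S.s12 n x w,
    hxn, smul_zero, add_zero]

/-- (K') Every kernel vector `n` of the conic of a good direction has `T n w w = 0`. -/
lemma good_ww (hV : finrank ℂ V = 6) (hS : S.Smooth) {P : Submodule ℂ V} (hP : Pl S P) {w : V}
    (hw : w ∉ P) (h : Good S P w) {n : V} (hn : n ∈ P) (hk : ∀ y ∈ P, S.T n y w = 0) :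
    S.T n w w = 0 := by
  obtain ⟨L, p, c, hLP, hL, hp, hc, hLL, hLa⟩ := good_trace hP hw h
  have hnL : n ∈ L := by
    by_contra hnL
    obtain ⟨v, hv, hv0⟩ := not_all hV hS hP hw
    apply hv0
    have h2 : L ⊔ span ℂ {n} = P := by
      apply Submodule.eq_of_le_of_finrank_eq
      · refine sup_le hLP ?_
        rw [span_singleton_le_iff_mem]
        exact hn
      · rw [finrank_sup_single hnL, hL, hP.1]
    have hv2 := hv
    rw [← h2] at hv2
    obtain ⟨u, hu, z, hz, rfl⟩ := mem_sup.mp hv2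
    obtain ⟨t, rfl⟩ := mem_span_singleton.mp hz
    have h3 : S.T u n w = 0 := by
      rw [S.s12]
      exact hk u (hLP hu)
    have h4 := hk n hn
    simp only [map_add, map_smul, LinearMap.add_apply, LinearMap.smul_apply, smul_eq_mul,
      hLL u hu u hu, h3, S.s12 n u w, h4]
    ring
  have h1 := hLa n hnL
  have h2 : S.T n p p = 0 := hP.2.three hn hp hp
  have h3 : S.T n p w = 0 := hk p hp
  simp only [map_add, map_smul, LinearMap.add_apply, LinearMap.smul_apply, smul_eq_mul, h2, h3,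
    S.s23 n w p] at h1
  have h4 : c * (c * S.T n w w) = 0 := by linear_combination h1
  exact (mul_eq_zero.mp ((mul_eq_zero.mp h4).resolve_left hc)).resolve_left hc

/-- A linear functional on `D` vanishing at two independent vectors vanishes. -/
lemma lin_zero {D : Submodule ℂ V} (hD : finrank ℂ D = 2) {a b : V} (ha : a ∈ D) (hb : b ∈ D)
    (ha0 : a ≠ 0) (hab : b ∉ span ℂ {a}) (f : V →ₗ[ℂ] ℂ) (hfa : f a = 0) (hfb : f b = 0) :
    ∀ w ∈ D, f w = 0 := by
  have h1 : span ℂ {a} ⊔ span ℂ {b} = D := by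
    apply Submodule.eq_of_le_of_finrank_eq
    · refine sup_le ?_ ?_
      · rw [span_singleton_le_iff_mem]; exact ha
      · rw [span_singleton_le_iff_mem]; exact hb
    · rw [finrank_sup_single hab, finrank_span_singleton ha0, hD]
  intro w hw
  rw [← h1] at hw
  obtain ⟨x, hx, y, hy, rfl⟩ := mem_sup.mp hw
  obtain ⟨s, rfl⟩ := mem_span_singleton.mp hx
  obtain ⟨t, rfl⟩ := mem_span_singleton.mp hy
  rw [map_add, map_smul, map_smul, hfa, hfb, smul_zero, smul_zero, add_zero]

/-- The pencil of conics over `D` has a common kernel vector. -/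
lemma pencil (hV : finrank ℂ V = 6) (hS : S.Smooth) {P D : Submodule ℂ V} (hP : Pl S P)
    (hD : finrank ℂ D = 2) (hPD : Disjoint P D) (w : Fin 4 → V) (hw : ∀ i, w i ∈ D)
    (hw0 : ∀ i, w i ≠ 0) (hij : ∀ i j, i ≠ j → w j ∉ span ℂ {w i}) (n : Fin 4 → V)
    (hn : ∀ i, n i ∈ P) (hn0 : ∀ i, n i ≠ 0) (hk : ∀ i, ∀ y ∈ P, S.T (n i) y (w i) = 0) :
    ∃ v ∈ P, v ≠ 0 ∧ ∀ y ∈ P, ∀ d ∈ D, S.T v y d = 0 := by
  by_cases hpar : ∃ i j, i ≠ j ∧ n j ∈ span ℂ {n i}
  · obtain ⟨i, j, hne, hm⟩ := hpar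
    obtain ⟨c, hc⟩ := mem_span_singleton.mp hm
    have hc0 : c ≠ 0 := by
      rintro rfl
      rw [zero_smul] at hc
      exact hn0 j hc.symm
    refine ⟨n i, hn i, hn0 i, fun y hy d hd => ?_⟩
    refine lin_zero hD (hw i) (hw j) (hw0 i) (hij i j hne) (S.T (n i) y) (hk i y hy) ?_ d hd
    have h1 := hk j y hy
    rw [← hc, map_smul, LinearMap.smul_apply, LinearMap.smul_apply, smul_eq_mul] at h1
    exact (mul_eq_zero.mp h1).resolve_left hc0
  push Not at hpar
  have hoff : ∀ i j, i ≠ j → ∀ d ∈ D, S.T (n i) (n j) d = 0 := by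
    intro i j hne d hd
    refine lin_zero hD (hw i) (hw j) (hw0 i) (hij i j hne) (S.T (n i) (n j))
      (hk i _ (hn j)) ?_ d hd
    rw [S.s12]
    exact hk j _ (hn i)
  by_cases hind : n 2 ∈ span ℂ {n 0} ⊔ span ℂ {n 1}
  · exfalso
    obtain ⟨x, hx, y, hy, hxy⟩ := mem_sup.mp hind
    obtain ⟨a, rfl⟩ := mem_span_singleton.mp hx
    obtain ⟨b, rfl⟩ := mem_span_singleton.mp hy
    have ha0 : a ≠ 0 := by
      rintro rfl
      apply hpar 1 2 (by decide)
      rw [← hxy, zero_smul, zero_add]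
      exact Submodule.smul_mem _ _ (mem_span_singleton_self _)
    have hb0 : b ≠ 0 := by
      rintro rfl
      apply hpar 0 2 (by decide)
      rw [← hxy, zero_smul, add_zero]
      exact Submodule.smul_mem _ _ (mem_span_singleton_self _)
    have h00 : ∀ d ∈ D, S.T (n 0) (n 0) d = 0 := by
      intro d hd
      have h1 := hoff 2 0 (by decide) d hd
      rw [← hxy] at h1
      simp only [map_add, map_smul, LinearMap.add_apply, LinearMap.smul_apply, smul_eq_mul,
        hoff 1 0 (by decide) d hd, mul_zero, add_zero] at h1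
      exact (mul_eq_zero.mp h1).resolve_left ha0
    have h11 : ∀ d ∈ D, S.T (n 1) (n 1) d = 0 := by
      intro d hd
      have h1 := hoff 2 1 (by decide) d hd
      rw [← hxy] at h1
      simp only [map_add, map_smul, LinearMap.add_apply, LinearMap.smul_apply, smul_eq_mul,
        hoff 0 1 (by decide) d hd, mul_zero, zero_add] at h1
      exact (mul_eq_zero.mp h1).resolve_left hb0
    have hN : finrank ℂ ↥(span ℂ {n 0} ⊔ span ℂ {n 1}) = 2 := by
      rw [finrank_sup_single (hpar 0 1 (by decide)), finrank_span_singleton (hn0 0)]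
    have hPD5 : 5 ≤ finrank ℂ ↥(P ⊔ D) := by
      have h1 := Submodule.finrank_sup_add_finrank_inf_eq P D
      rw [disjoint_iff.mp hPD, finrank_bot, hP.1, hD] at h1
      omega
    refine no_line hV hS hN hPD5 fun v hv => ?_
    obtain ⟨x, hx, y, hy, rfl⟩ := mem_sup.mp hv
    obtain ⟨s, rfl⟩ := mem_span_singleton.mp hx
    obtain ⟨t, rfl⟩ := mem_span_singleton.mp hy
    refine sup_le (le_tang hP.2 (P.add_mem (P.smul_mem _ (hn 0)) (P.smul_mem _ (hn 1)))) ?_
    intro d hd
    rw [mem_tang, S.sq_add, h00 d hd, h11 d hd, hoff 0 1 (by decide) d hd]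
    ring
  · -- the three kernel vectors are a basis of `P`
    have hbas : span ℂ {n 0} ⊔ span ℂ {n 1} ⊔ span ℂ {n 2} = P := by
      apply Submodule.eq_of_le_of_finrank_eq
      · refine sup_le (sup_le ?_ ?_) ?_ <;> rw [span_singleton_le_iff_mem] <;> exact hn _
      · rw [finrank_sup_single hind, finrank_sup_single (hpar 0 1 (by decide)),
          finrank_span_singleton (hn0 0), hP.1]
    have hdec : ∀ y ∈ P, ∃ a b c : ℂ, y = a • n 0 + b • n 1 + c • n 2 := by
      intro y hy
      rw [← hbas] at hy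
      obtain ⟨u, hu, z, hz, rfl⟩ := mem_sup.mp hy
      obtain ⟨x, hx, x', hx', rfl⟩ := mem_sup.mp hu
      obtain ⟨a, rfl⟩ := mem_span_singleton.mp hx
      obtain ⟨b, rfl⟩ := mem_span_singleton.mp hx'
      obtain ⟨c, rfl⟩ := mem_span_singleton.mp hz
      exact ⟨a, b, c, rfl⟩
    -- one of the diagonal entries vanishes at `w 3`
    have hdiag : ∃ i : Fin 3, S.T (n i.castSucc) (n i.castSucc) (w 3) = 0 := by
      by_contra hcon
      push Not at hcon
      obtain ⟨a, b, c, habc⟩ := hdec (n 3) (hn 3)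
      have e0 := hk 3 (n 0) (hn 0)
      have e1 := hk 3 (n 1) (hn 1)
      have e2 := hk 3 (n 2) (hn 2)
      have f01 := hoff 0 1 (by decide) _ (hw 3)
      have f02 := hoff 0 2 (by decide) _ (hw 3)
      have f10 := hoff 1 0 (by decide) _ (hw 3)
      have f12 := hoff 1 2 (by decide) _ (hw 3)
      have f20 := hoff 2 0 (by decide) _ (hw 3)
      have f21 := hoff 2 1 (by decide) _ (hw 3)
      rw [habc] at e0 e1 e2
      simp only [map_add, map_smul, LinearMap.add_apply, LinearMap.smul_apply, smul_eq_mul,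
        f01, f02, f10, f12, f20, f21, mul_zero, add_zero, zero_add] at e0 e1 e2
      have g0 : a = 0 := (mul_eq_zero.mp e0).resolve_right (hcon 0)
      have g1 : b = 0 := (mul_eq_zero.mp e1).resolve_right (hcon 1)
      have g2 : c = 0 := (mul_eq_zero.mp e2).resolve_right (hcon 2)
      apply hn0 3
      rw [habc, g0, g1, g2, zero_smul, zero_smul, zero_smul, add_zero, add_zero]
    obtain ⟨i, hi⟩ := hdiag
    set v := n i.castSucc with hv
    have hvv : ∀ d ∈ D, S.T v v d = 0 := by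
      intro d hd
      have hne : i.castSucc ≠ 3 := by
        intro h
        have := congrArg Fin.val h
        simp at this
        omega
      exact lin_zero hD (hw i.castSucc) (hw 3) (hw0 _) (hij _ _ hne) (S.T v v)
        (hk _ _ (hn _)) hi d hd
    have hvj : ∀ j : Fin 4, ∀ d ∈ D, S.T v (n j) d = 0 := by
      intro j d hd
      by_cases h : i.castSucc = j
      · rw [← h]
        exact hvv d hd
      · exact hoff _ _ h d hd
    refine ⟨v, hn _, hn0 _, fun y hy d hd => ?_⟩
    obtain ⟨a, b, c, rfl⟩ := hdec y hy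
    simp only [map_add, map_smul, LinearMap.add_apply, LinearMap.smul_apply, smul_eq_mul,
      hvj 0 d hd, hvj 1 d hd, hvj 2 d hd, mul_zero, add_zero]

/-- ROW C: four good directions in one plane of directions give an Eckardt point. -/
theorem row_C (hV : finrank ℂ V = 6) (hS : S.Smooth) {P D : Submodule ℂ V} (hP : Pl S P)
    (hD : finrank ℂ D = 2) (hPD : Disjoint P D) (w : Fin 4 → V) (hw : ∀ i, w i ∈ D)
    (hw0 : ∀ i, w i ≠ 0) (hij : ∀ i j, i ≠ j → w j ∉ span ℂ {w i}) (hg : ∀ i, Good S P (w i)) :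
    ∃ v, S.Eckardt v := by
  have hwP : ∀ i, w i ∉ P := fun i h =>
    hw0 i (Submodule.disjoint_def.mp hPD _ h (hw i))
  choose n hn hn0 hk using fun i => good_kernel hP (hwP i) (hg i)
  obtain ⟨v, hv, hv0, hvk⟩ := pencil hV hS hP hD hPD w hw hw0 hij n hn hn0 hk
  have hvw : ∀ i, S.T v (w i) (w i) = 0 := fun i =>
    good_ww hV hS hP (hwP i) (hg i) hv fun y hy => hvk y hy _ (hw i)
  have hD01 : span ℂ {w 0} ⊔ span ℂ {w 1} = D := by
    apply Submodule.eq_of_le_of_finrank_eq
    · refine sup_le ?_ ?_ <;> rw [span_singleton_le_iff_mem] <;> exact hw _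
    · rw [finrank_sup_single (hij 0 1 (by decide)), finrank_span_singleton (hw0 0), hD]
  have hdec : ∀ d ∈ D, ∃ s t : ℂ, d = s • w 0 + t • w 1 := by
    intro d hd
    rw [← hD01] at hd
    obtain ⟨x, hx, y, hy, rfl⟩ := mem_sup.mp hd
    obtain ⟨s, rfl⟩ := mem_span_singleton.mp hx
    obtain ⟨t, rfl⟩ := mem_span_singleton.mp hy
    exact ⟨s, t, rfl⟩
  have h01 : S.T v (w 0) (w 1) = 0 := by
    obtain ⟨s, t, hst⟩ := hdec (w 2) (hw 2)
    have hs : s ≠ 0 := by
      rintro rfl
      apply hij 1 2 (by decide)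
      rw [hst, zero_smul, zero_add]
      exact Submodule.smul_mem _ _ (mem_span_singleton_self _)
    have ht : t ≠ 0 := by
      rintro rfl
      apply hij 0 2 (by decide)
      rw [hst, zero_smul, add_zero]
      exact Submodule.smul_mem _ _ (mem_span_singleton_self _)
    have h2 := hvw 2
    rw [hst] at h2
    simp only [map_add, map_smul, LinearMap.add_apply, LinearMap.smul_apply, smul_eq_mul,
      hvw 0, hvw 1, S.s23 v (w 1) (w 0)] at h2
    have h3 : s * (t * S.T v (w 0) (w 1)) = 0 := by linear_combination (1 / 2 : ℂ) * h2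
    exact (mul_eq_zero.mp ((mul_eq_zero.mp h3).resolve_left hs)).resolve_left ht
  have hDD : ∀ d ∈ D, ∀ d' ∈ D, S.T v d d' = 0 := by
    intro d hd d' hd'
    obtain ⟨s, t, rfl⟩ := hdec d hd
    obtain ⟨s', t', rfl⟩ := hdec d' hd'
    simp only [map_add, map_smul, LinearMap.add_apply, LinearMap.smul_apply, smul_eq_mul,
      hvw 0, hvw 1, h01, S.s23 v (w 1) (w 0)]
    ring
  have hHH : ∀ h ∈ P ⊔ D, ∀ k ∈ P ⊔ D, S.T v h k = 0 := by
    intro h hh k hk'
    obtain ⟨y, hy, d, hd, rfl⟩ := mem_sup.mp hh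
    obtain ⟨y', hy', d', hd', rfl⟩ := mem_sup.mp hk'
    simp only [map_add, LinearMap.add_apply, hP.2.three hv hy hy', hvk y hy d' hd',
      S.s23 v d y', hvk y' hy' d hd, hDD d hd d' hd', add_zero]
  have hvH : v ∈ P ⊔ D := mem_sup_left hv
  have hH5 : finrank ℂ ↥(P ⊔ D) = 5 := by
    have h1 := Submodule.finrank_sup_add_finrank_inf_eq P D
    rw [disjoint_iff.mp hPD, finrank_bot, hP.1, hD] at h1
    omega
  have htang : tang S v = P ⊔ D := by
    symm
    apply Submodule.eq_of_le_of_finrank_eq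
    · intro h hh
      exact hHH v hvH h hh
    · have h1 : P ⊔ D ≤ tang S v := fun h hh => hHH v hvH h hh
      have h2 := Submodule.finrank_mono h1
      have h3 : finrank ℂ ↥(tang S v) ≠ 6 := by
        intro h6
        apply hv0
        apply tang_top hS
        apply Submodule.eq_top_of_finrank_eq
        rw [h6, hV]
      have h4 := Submodule.finrank_le (tang S v)
      omega
  refine ⟨v, hv0, hHH v hvH v hvH, fun h k hh hk' => ?_⟩
  have h1 : h ∈ tang S v := hh
  have h2 : k ∈ tang S v := hk'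
  rw [htang] at h1 h2
  exact hHH h h1 k h2

end Vale.Agent.P287.R2.H389
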