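import Vale.Agent.P287.R2.H992.Poly

/-!
P287 (helper389): points of the affine chart of directions (rows M and L of helper992).
-/

namespace Vale.Agent.P287.R2.H389

open Module Submodule MvPolynomial
open Vale.Agent.P287.R2.H248
open Vale.Agent.P287.R2.H622
open Vale.Agent.P287.R2.H992

variable {V : Type*} [AddCommGroup V] [Module ℂ V] [FiniteDimensional ℂ V] {S : Tri V}

/-- The vectors `k` are independent modulo `P`. -/
lemma indep_mod (hV : finrank ℂ V = 6) {P : Submodule ℂ V} (hP : finrank ℂ P = 3)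
    (k : Fin 3 → V) (hk : P ⊔ span ℂ (Set.range k) = ⊤) (c : Fin 3 → ℂ)
    (hc : ∑ l, c l • k l ∈ P) : c = 0 := by
  have h1 := Submodule.finrank_sup_add_finrank_inf_eq P (span ℂ (Set.range k))
  rw [hk, finrank_top, hV, hP] at h1
  have h2 : finrank ℂ ↥(span ℂ (Set.range k)) ≤ 3 := by
    have := finrank_range_le_card (R := ℂ) k
    rwa [Fintype.card_fin] at this
  have h3 : finrank ℂ ↥(span ℂ (Set.range k)) = 3 := by omega
  have h4 : finrank ℂ ↥(P ⊓ span ℂ (Set.range k)) = 0 := by omega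
  have h5 : P ⊓ span ℂ (Set.range k) = ⊥ := Submodule.finrank_eq_zero.mp h4
  have h6 : LinearIndependent ℂ k := by
    rw [linearIndependent_iff_card_eq_finrank_span, Fintype.card_fin]
    exact h3.symm
  have h7 : ∑ l, c l • k l ∈ P ⊓ span ℂ (Set.range k) :=
    ⟨hc, Submodule.sum_mem _ fun l _ =>
      Submodule.smul_mem _ _ (subset_span (Set.mem_range_self l))⟩
  rw [h5, Submodule.mem_bot] at h7
  funext l
  exact Fintype.linearIndependent_iff.mp h6 c h7 l

theorem row_M (hV : finrank ℂ V = 6) {P : Submodule ℂ V} (hP : finrank ℂ P = 3)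
    (k : Fin 3 → V) (hk : P ⊔ span ℂ (Set.range k) = ⊤) :
    (∀ x, kk k x ∉ P) ∧ ∀ x y, x ≠ y → kk k y ∉ P ⊔ span ℂ {kk k x} := by
  refine ⟨fun x hx => ?_, fun x y hxy hm => ?_⟩
  · have h1 := congrFun (indep_mod hV hP k hk (kv x) hx) 0
    simp [kv] at h1
  · obtain ⟨p, hp, z, hz, hpz⟩ := mem_sup.mp hm
    obtain ⟨c, rfl⟩ := mem_span_singleton.mp hz
    have h1 : ∑ l, (kv y l - c * kv x l) • k l ∈ P := by
      have h2 : ∑ l, (kv y l - c * kv x l) • k l = p := by
        have h3 : ∑ l, (kv y l - c * kv x l) • k l = kk k y - c • kk k x := by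
          simp only [kk, Finset.smul_sum, sub_smul, mul_smul, Finset.sum_sub_distrib]
        rw [h3, ← hpz]
        abel
      rw [h2]
      exact hp
    have h2 := indep_mod hV hP k hk _ h1
    have e0 := congrFun h2 0
    have e1 := congrFun h2 1
    have e2 := congrFun h2 2
    simp only [kv, Matrix.cons_val_zero, Matrix.cons_val_one, Matrix.cons_val, Pi.zero_apply,
      mul_one] at e0 e1 e2
    have hc : c = 1 := by linear_combination -e0
    rw [hc] at e1 e2
    apply hxy
    funext i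
    fin_cases i
    · change x 0 = y 0
      linear_combination -e1
    · change x 1 = y 1
      linear_combination -e2

/-- A polynomial of total degree at most one is affine. -/
lemma eval_affine (l : MvPolynomial (Fin 2) ℂ) (hd : l.totalDegree ≤ 1) :
    ∃ a b c : ℂ, l = C a + C b * X 0 + C c * X 1 := by
  refine ⟨coeff 0 l, coeff (Finsupp.single 0 1) l, coeff (Finsupp.single 1 1) l, ?_⟩
  ext d
  have hsum : ∀ d : Fin 2 →₀ ℕ, 1 < d 0 + d 1 → coeff d l = 0 := by
    intro d hd2
    apply coeff_eq_zero_of_totalDegree_lt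
    have h1 : ∑ i ∈ d.support, d i = d 0 + d 1 := by
      rw [Finset.sum_subset (Finset.subset_univ _) (fun i _ hi => by
        simpa using hi), Fin.sum_univ_two]
    omega
  rw [coeff_add, coeff_add, coeff_C, coeff_C_mul, coeff_C_mul, coeff_X, coeff_X]
  have hext : ∀ d e : Fin 2 →₀ ℕ, d 0 = e 0 → d 1 = e 1 → d = e := by
    intro d e h0 h1
    ext i
    fin_cases i
    · exact h0
    · exact h1
  rcases Nat.lt_or_ge 1 (d 0 + d 1) with h | h
  · have n0 : (0 : Fin 2 →₀ ℕ) ≠ d := by
      rintro rfl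
      simp at h
    have n1 : Finsupp.single (0 : Fin 2) 1 ≠ d := by
      rintro rfl
      simp at h
    have n2 : Finsupp.single (1 : Fin 2) 1 ≠ d := by
      rintro rfl
      simp at h
    rw [hsum d h, if_neg n0, if_neg n1, if_neg n2]
    ring
  · have h3 : (d 0 = 0 ∧ d 1 = 0) ∨ (d 0 = 1 ∧ d 1 = 0) ∨ (d 0 = 0 ∧ d 1 = 1) := by omega
    rcases h3 with ⟨h0, h1⟩ | ⟨h0, h1⟩ | ⟨h0, h1⟩
    · have e : d = 0 := hext _ _ (by simp [h0]) (by simp [h1])
      subst e
      simp
    · have e : d = Finsupp.single 0 1 := hext _ _ (by simp [h0]) (by simp [h1])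
      subst e
      have n0 : (0 : Fin 2 →₀ ℕ) ≠ Finsupp.single 0 1 := by
        intro h
        have := DFunLike.congr_fun h 0
        simp at this
      have n2 : Finsupp.single (1 : Fin 2) 1 ≠ Finsupp.single 0 1 := by
        intro h
        have := DFunLike.congr_fun h 0
        simp at this
      rw [if_neg n0, if_neg n2, if_pos rfl]
      ring
    · have e : d = Finsupp.single 1 1 := hext _ _ (by simp [h0]) (by simp [h1])
      subst e
      have n0 : (0 : Fin 2 →₀ ℕ) ≠ Finsupp.single 1 1 := by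
        intro h
        have := DFunLike.congr_fun h 1
        simp at this
      have n1 : Finsupp.single (0 : Fin 2) 1 ≠ Finsupp.single 1 1 := by
        intro h
        have := DFunLike.congr_fun h 0
        simp at this
      rw [if_neg n0, if_neg n1, if_pos rfl]
      ring

theorem row_L (hV : finrank ℂ V = 6) {P : Submodule ℂ V} (hP : finrank ℂ P = 3)
    (k : Fin 3 → V) (hk : P ⊔ span ℂ (Set.range k) = ⊤) (l : MvPolynomial (Fin 2) ℂ)
    (hl : l ≠ 0) (hd : l.totalDegree ≤ 1) (x : Fin 4 → Fin 2 → ℂ) (hx : Function.Injective x)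
    (hxl : ∀ i, eval (x i) l = 0) :
    ∃ D : Submodule ℂ V, finrank ℂ D = 2 ∧ Disjoint P D ∧ (∀ i, kk k (x i) ∈ D) ∧
      (∀ i, kk k (x i) ≠ 0) ∧ ∀ i j, i ≠ j → kk k (x j) ∉ span ℂ {kk k (x i)} := by
  obtain ⟨hM1, hM2⟩ := row_M hV hP k hk
  obtain ⟨a, b, c, hl'⟩ := eval_affine l hd
  have hev : ∀ i, a + b * x i 0 + c * x i 1 = 0 := by
    intro i
    have h1 := hxl i
    rw [hl'] at h1
    simpa using h1
  have hbc : b ≠ 0 ∨ c ≠ 0 := by
    by_contra hcon
    push Not at hcon
    obtain ⟨hb, hc⟩ := hcon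
    have h1 := hev 0
    rw [hb, hc, zero_mul, zero_mul, add_zero, add_zero] at h1
    apply hl
    rw [hl', hb, hc, h1, C_0]
    ring
  have h01 : x 0 ≠ x 1 := fun h => by simpa using hx h
  -- every point is on the line through the first two
  have hpar : ∀ i, ∃ t : ℂ, ∀ m, x i m = x 0 m + t * (x 1 m - x 0 m) := by
    intro i
    have e0 := hev 0
    have e1 := hev 1
    have ei := hev i
    have hdet : (x i 0 - x 0 0) * (x 1 1 - x 0 1) = (x i 1 - x 0 1) * (x 1 0 - x 0 0) := by
      rcases hbc with hb | hc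
      · have h1 : b * ((x i 0 - x 0 0) * (x 1 1 - x 0 1) -
            (x i 1 - x 0 1) * (x 1 0 - x 0 0)) = 0 := by
          linear_combination (ei - e0) * (x 1 1 - x 0 1) - (e1 - e0) * (x i 1 - x 0 1)
        exact sub_eq_zero.mp ((mul_eq_zero.mp h1).resolve_left hb)
      · have h1 : c * ((x i 0 - x 0 0) * (x 1 1 - x 0 1) -
            (x i 1 - x 0 1) * (x 1 0 - x 0 0)) = 0 := by
          linear_combination (e1 - e0) * (x i 0 - x 0 0) - (ei - e0) * (x 1 0 - x 0 0)
        exact sub_eq_zero.mp ((mul_eq_zero.mp h1).resolve_left hc)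
    by_cases h0 : x 1 0 - x 0 0 = 0
    · have h1 : x 1 1 - x 0 1 ≠ 0 := by
        intro h1
        apply h01
        funext m
        fin_cases m
        · exact (sub_eq_zero.mp h0).symm
        · exact (sub_eq_zero.mp h1).symm
      have h2 : x i 0 - x 0 0 = 0 := by
        rw [h0, mul_zero] at hdet
        exact (mul_eq_zero.mp hdet).resolve_right h1
      refine ⟨(x i 1 - x 0 1) / (x 1 1 - x 0 1), fun m => ?_⟩
      fin_cases m
      · change x i 0 = x 0 0 + _ * (x 1 0 - x 0 0)
        rw [h0]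
        linear_combination h2
      · change x i 1 = x 0 1 + _ * (x 1 1 - x 0 1)
        rw [div_mul_cancel₀ _ h1]
        ring
    · refine ⟨(x i 0 - x 0 0) / (x 1 0 - x 0 0), fun m => ?_⟩
      fin_cases m
      · change x i 0 = x 0 0 + _ * (x 1 0 - x 0 0)
        rw [div_mul_cancel₀ _ h0]
        ring
      · change x i 1 = x 0 1 + _ * (x 1 1 - x 0 1)
        rw [div_mul_eq_mul_div, hdet, mul_div_assoc, div_self h0]
        ring
  have hne0 : ∀ y, kk k y ≠ 0 := fun y h => hM1 y (h ▸ P.zero_mem)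
  have hnot : ∀ y z, y ≠ z → kk k z ∉ span ℂ {kk k y} := fun y z hyz h =>
    hM2 y z hyz (mem_sup_right h)
  refine ⟨span ℂ {kk k (x 0)} ⊔ span ℂ {kk k (x 1)}, ?_, ?_, fun i => ?_, fun i => hne0 _,
    fun i j hij => hnot _ _ fun h => hij (hx h)⟩
  · rw [finrank_sup_single (hnot _ _ h01), finrank_span_singleton (hne0 _)]
  · have h1 : finrank ℂ ↥(P ⊔ (span ℂ {kk k (x 0)} ⊔ span ℂ {kk k (x 1)})) = 5 := by
      rw [← sup_assoc, finrank_sup_single (hM2 _ _ h01), finrank_sup_single (hM1 _), hP]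
    have h2 := Submodule.finrank_sup_add_finrank_inf_eq P
      (span ℂ {kk k (x 0)} ⊔ span ℂ {kk k (x 1)})
    rw [h1, hP, finrank_sup_single (hnot _ _ h01), finrank_span_singleton (hne0 _)] at h2
    rw [disjoint_iff, ← finrank_eq_zero (R := ℂ)]
    omega
  · obtain ⟨t, ht⟩ := hpar i
    have h1 : kk k (x i) = (1 - t) • kk k (x 0) + t • kk k (x 1) := by
      simp only [kk, Fin.sum_univ_three, kv, Matrix.cons_val_zero, Matrix.cons_val_one,
        Matrix.cons_val, ht]
      module
    rw [h1]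
    exact add_mem_sup (smul_mem _ _ (mem_span_singleton_self _))
      (smul_mem _ _ (mem_span_singleton_self _))

end Vale.Agent.P287.R2.H389
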