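import Vale.Agent.P287.R2.H992.Good
import Vale.Agent.P287.R2.H622.Twenty

/-!
P287 (helper389): at most twenty good directions (row T of helper992).
-/

namespace Vale.Agent.P287.R2.H389

open Module Submodule
open Vale.Agent.P287.R2.H248
open Vale.Agent.P287.R2.H622
open Vale.Agent.P287.R2.H992

variable {V : Type*} [AddCommGroup V] [Module ℂ V] [FiniteDimensional ℂ V] {S : Tri V}

/-- The trace on `P` of a plane in the span of `P` and `w`. -/
lemma trace_data {P A : Submodule ℂ V} (hP : Pl S P) (hA : Pl S A) {w : V} (hw : w ∉ P)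
    (hAle : A ≤ P ⊔ span ℂ {w}) (hAP : A ≠ P) :
    finrank ℂ ↥(A ⊓ P) = 2 ∧ ∀ x ∈ A ⊓ P, ∀ y ∈ A ⊓ P, S.T x y w = 0 := by
  have h1 : ¬ A ≤ P := fun h => hAP (Submodule.eq_of_le_of_finrank_eq h (by rw [hA.1, hP.1]))
  obtain ⟨a, ha, haP⟩ := Set.not_subset.mp h1
  obtain ⟨p, hp, z, hz, rfl⟩ := mem_sup.mp (hAle ha)
  obtain ⟨c, rfl⟩ := mem_span_singleton.mp hz
  have hc : c ≠ 0 := by
    rintro rfl
    apply haP
    change p + (0 : ℂ) • w ∈ P
    rw [zero_smul, add_zero]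
    exact hp
  have h2 : finrank ℂ ↥(A ⊔ P) = 4 := by
    apply le_antisymm
    · have h3 : A ⊔ P ≤ P ⊔ span ℂ {w} := sup_le hAle le_sup_left
      have h4 := Submodule.finrank_mono h3
      rwa [finrank_sup_single hw, hP.1] at h4
    · have h3 : P ⊔ span ℂ {p + c • w} ≤ A ⊔ P := by
        refine sup_le le_sup_right ?_
        rw [span_singleton_le_iff_mem]
        exact mem_sup_left ha
      have h4 := Submodule.finrank_mono h3
      rwa [finrank_sup_single haP, hP.1] at h4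
  have h3 := Submodule.finrank_sup_add_finrank_inf_eq A P
  rw [h2, hA.1, hP.1] at h3
  refine ⟨by omega, ?_⟩
  rintro x ⟨hxA, hxP⟩ y ⟨hyA, hyP⟩
  have h4 := hA.2.three hxA hyA ha
  rw [map_add, map_smul, hP.2.three hxP hyP hp, zero_add, smul_eq_mul] at h4
  exact (mul_eq_zero.mp h4).resolve_left hc

/-- ROW T: at most twenty directions. -/
theorem row_T (hV : finrank ℂ V = 6) (hS : S.Smooth) {P : Submodule ℂ V} (hP : Pl S P)
    (N : ℕ) (w : Fin N → V) (hw : ∀ i, w i ∉ P)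
    (hij : ∀ i j, i ≠ j → w j ∉ P ⊔ span ℂ {w i}) (hg : ∀ i, Good S P (w i)) : N ≤ 20 := by
  choose A hA hAle hAP using hg
  refine le_twenty hV hS A hA fun i j hne => ?_
  obtain ⟨hi2, hiT⟩ := trace_data hP (hA i) (hw i) (hAle i) (hAP i)
  obtain ⟨hj2, hjT⟩ := trace_data hP (hA j) (hw j) (hAle j) (hAP j)
  have hinP : A i ⊓ A j ≤ P := by
    rintro x ⟨hxi, hxj⟩
    obtain ⟨p', hp', z', hz', h2⟩ := mem_sup.mp (hAle j hxj)
    obtain ⟨c', rfl⟩ := mem_span_singleton.mp hz'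
    by_cases hc : c' = 0
    · rw [← h2, hc, zero_smul, add_zero]
      exact hp'
    · exfalso
      apply hij i j hne
      have h3 : c' • w j ∈ P ⊔ span ℂ {w i} := by
        have h4 : c' • w j = x - p' := by rw [← h2]; abel
        rw [h4]
        exact Submodule.sub_mem _ (hAle i hxi) (mem_sup_left hp')
      exact (Submodule.smul_mem_iff _ hc).mp h3
  have heq : A i ⊓ A j = (A i ⊓ P) ⊓ (A j ⊓ P) := by
    apply le_antisymm
    · intro x hx
      exact ⟨⟨hx.1, hinP hx⟩, ⟨hx.2, hinP hx⟩⟩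
    · intro x hx
      exact ⟨hx.1.1, hx.2.1⟩
  have h1 := Submodule.finrank_sup_add_finrank_inf_eq (A i ⊓ P) (A j ⊓ P)
  have h2 : finrank ℂ ↥((A i ⊓ P) ⊔ (A j ⊓ P)) ≤ 3 := by
    have h3 := Submodule.finrank_mono (sup_le (inf_le_right : A i ⊓ P ≤ P)
      (inf_le_right : A j ⊓ P ≤ P))
    rwa [hP.1] at h3
  rw [← heq, hi2, hj2] at h1
  have h3 : finrank ℂ ↥(A i ⊓ A j) ≤ 2 := by
    rw [heq, ← hi2]
    exact Submodule.finrank_mono inf_le_left
  have h4 : finrank ℂ ↥(A i ⊓ A j) ≠ 2 := by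
    intro h5
    have h6 : A i ⊓ A j = A i ⊓ P := by
      apply Submodule.eq_of_le_of_finrank_eq
      · rw [heq]; exact inf_le_left
      · rw [h5, hi2]
    have h7 : A i ⊓ A j = A j ⊓ P := by
      apply Submodule.eq_of_le_of_finrank_eq
      · rw [heq]; exact inf_le_right
      · rw [h5, hj2]
    have h8 : 5 ≤ finrank ℂ ↥(P ⊔ span ℂ {w i} ⊔ span ℂ {w j}) := by
      rw [finrank_sup_single (hij i j hne), finrank_sup_single (hw i), hP.1]
    refine no_line hV hS h5 h8 fun v hv => ?_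
    refine sup_le (sup_le (le_tang hP.2 (hinP hv)) ?_) ?_
    · rw [span_singleton_le_iff_mem]
      rw [h6] at hv
      exact hiT v hv v hv
    · rw [span_singleton_le_iff_mem]
      rw [h7] at hv
      exact hjT v hv v hv
  omega

end Vale.Agent.P287.R2.H389
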