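import Vale.Agent.P287.R2.H248.Polar

/-!
P287: if a smooth cubic fourfold contains two planes meeting in a line and a third plane which
together with them spans, then the third plane is disjoint from one of the two.
-/

namespace Vale.Agent.P287.R2.H389

open MvPolynomial Submodule Module Vale.Agent.P287.R2.H248

/-- Three planes of a smooth cubic fourfold, two of them meeting in a line, which span: the third
is disjoint from one of the two. -/
theorem three_planes {F : MvPolynomial (Fin 6) ℂ} (hF : IsCubicFourfold F)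
    {P P' W : Submodule ℂ A6} (hP : IsPlaneIn F P) (hP' : IsPlaneIn F P') (hW : IsPlaneIn F W)
    (h2 : finrank ℂ ↥(P ⊓ P') = 2) (h : P ⊔ P' ⊔ W = ⊤) :
    Disjoint P W ∨ Disjoint P' W := by
  by_contra hcon
  push Not at hcon
  obtain ⟨h3, h4⟩ := hcon
  rw [Submodule.disjoint_def] at h3 h4
  push Not at h3 h4
  obtain ⟨x, hxP, hxW, hx0⟩ := h3
  obtain ⟨y, hyP, hyW, hy0⟩ := h4
  have h5 := Submodule.finrank_sup_add_finrank_inf_eq P P'
  rw [h2, hP.1, hP'.1] at h5
  have h6 := Submodule.finrank_sup_add_finrank_inf_eq (P ⊔ P') W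
  rw [h, finrank_top, hW.1, finrank_fin_fun] at h6
  have h7 : finrank ℂ ↥((P ⊔ P') ⊓ W) = 1 := by omega
  have hx : (⟨x, mem_sup_left hxP, hxW⟩ : ↥((P ⊔ P') ⊓ W)) ≠ 0 :=
    fun h => hx0 (congrArg Subtype.val h)
  obtain ⟨c, hc⟩ := (finrank_eq_one_iff_of_nonzero' _ hx).mp h7 ⟨y, mem_sup_right hyP, hyW⟩
  have h8 : c • x = y := congrArg Subtype.val hc
  have hc0 : c ≠ 0 := by
    rintro rfl
    rw [zero_smul] at h8
    exact hy0 h8.symm
  have hxP' : x ∈ P' := by
    rw [← h8] at hyP
    exact (Submodule.smul_mem_iff _ hc0).mp hyP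
  apply hx0
  apply pol_smooth hF
  have hle : P ⊔ P' ⊔ W ≤ LinearMap.ker ((pol F).T x x) := by
    refine sup_le (sup_le ?_ ?_) ?_
    · intro v hv
      exact LinearMap.mem_ker.mpr (((pol_iso hF.1).mpr hP.2).two hxP hv)
    · intro v hv
      exact LinearMap.mem_ker.mpr (((pol_iso hF.1).mpr hP'.2).two hxP' hv)
    · intro v hv
      exact LinearMap.mem_ker.mpr (((pol_iso hF.1).mpr hW.2).two hxW hv)
  intro v
  have : v ∈ P ⊔ P' ⊔ W := by rw [h]; trivial
  exact LinearMap.mem_ker.mp (hle this)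

end Vale.Agent.P287.R2.H389
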